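import Vale.Agent.P192.R2.H51L.Core
import Vale.Agent.P192.R2.H503.PadicMain

/-!
# P192: conformal C1 bijections over local fields: near similarities
-/

namespace Vale.Agent.P192.H503.LF

open Set Vale.Agent.P192.R2.H51L

section conf

variable {K : Type*} [NontriviallyNormedField K] {V : Type*} [NormedAddCommGroup V]
  [NormedSpace K V] [IsUltrametricDist V] {U : Set V} {η : ℝ} [hη : Fact (0 < η ∧ η < 1)]

/-- `g` is nearly the similarity `D`, of ratio `c`, on `s` -/
def NS (η : ℝ) (g : Equiv.Perm U) (D : V →ₗ[K] V) (c : ℝ) (s : Set U) : Prop :=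
  0 < c ∧ (∀ v, ‖D v‖ = c * ‖v‖) ∧ ∀ y ∈ s, ∀ z ∈ s,
    ‖((g y : V) - g z) - D ((y : V) - z)‖ ≤ η * (c * ‖(y : V) - z‖)

omit [NormedSpace K V] in
theorem umax (a b : V) : ‖a + b‖ ≤ max ‖a‖ ‖b‖ := IsUltrametricDist.norm_add_le_max a b

omit [NormedSpace K V] in
theorem norm_eq_of_close {a b : V} (h : ‖a - b‖ < ‖b‖) : ‖a‖ = ‖b‖ := by
  apply le_antisymm
  · have h1 := umax (a - b) b
    rw [sub_add_cancel] at h1
    exact h1.trans (max_le h.le le_rfl)
  · have h1 := umax (b - a) a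
    rw [sub_add_cancel] at h1
    rcases le_max_iff.1 h1 with h2 | h2
    · rw [norm_sub_rev] at h2
      exact absurd h2 (not_le.2 h)
    · exact h2

theorem NS.norm {g : Equiv.Perm U} {D : V →ₗ[K] V} {c : ℝ} {s : Set U} (h : NS η g D c s)
    {y z : U} (hy : y ∈ s) (hz : z ∈ s) : ‖(g y : V) - g z‖ = c * ‖(y : V) - z‖ := by
  rcases eq_or_ne y z with rfl | hne
  · simp
  have h1 : 0 < ‖(y : V) - z‖ := norm_pos_iff.2 (sub_ne_zero.2 (fun h => hne (Subtype.ext h)))
  have h2 := h.2.2 y hy z hz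
  have h3 : 0 < c * ‖(y : V) - z‖ := mul_pos h.1 h1
  rw [← h.2.1]
  refine norm_eq_of_close (h2.trans_lt ?_)
  rw [h.2.1]
  have := hη.out.2
  nlinarith

omit [IsUltrametricDist V] in
theorem NS.one (s : Set U) : NS (K := K) η (1 : Equiv.Perm U) LinearMap.id 1 s := by
  refine ⟨one_pos, fun v => by simp, fun y _ z _ => ?_⟩
  have := hη.out.1
  simp only [Equiv.Perm.coe_one, id, LinearMap.id_coe, sub_self, norm_zero]
  positivity

theorem NS.mul {g h : Equiv.Perm U} {D E : V →ₗ[K] V} {c d : ℝ} {s : Set U}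
    (hg : NS η g D c s) (hh : NS η h E d (g '' s)) : NS η (h * g) (E ∘ₗ D) (d * c) s := by
  refine ⟨mul_pos hh.1 hg.1, fun v => ?_, fun y hy z hz => ?_⟩
  · rw [LinearMap.comp_apply, hh.2.1, hg.2.1, mul_assoc]
  · have h1 := hg.2.2 y hy z hz
    have h2 := hh.2.2 _ (mem_image_of_mem g hy) _ (mem_image_of_mem g hz)
    rw [hg.norm hy hz] at h2
    have h3 : (((h * g) y : U) : V) - ((h * g) z : U) - (E ∘ₗ D) ((y : V) - z) =
        (((h (g y) : V) - h (g z)) - E ((g y : V) - g z)) +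
        E (((g y : V) - g z) - D ((y : V) - z)) := by
      rw [map_sub E ((g y : V) - g z)]
      simp only [Equiv.Perm.mul_apply, LinearMap.comp_apply]
      abel
    rw [h3]
    refine (umax _ _).trans (max_le ?_ ?_)
    · rw [mul_assoc d c]
      exact h2
    · rw [hh.2.1]
      calc d * ‖((g y : V) - g z) - D ((y : V) - z)‖ ≤
          d * (η * (c * ‖(y : V) - z‖)) :=
            mul_le_mul_of_nonneg_left h1 hh.1.le
        _ = _ := by ring

theorem NS.inv [FiniteDimensional K V] {g : Equiv.Perm U} {D : V →ₗ[K] V} {c : ℝ}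
    {s : Set U} (h : NS η g D c s) : ∃ E : V →ₗ[K] V, NS η g⁻¹ E c⁻¹ (g '' s) := by
  have hc := h.1
  have hinj : Function.Injective D := by
    rw [← LinearMap.ker_eq_bot, LinearMap.ker_eq_bot']
    intro v hv
    have := h.2.1 v
    rw [hv, norm_zero] at this
    have h0 : ‖v‖ = 0 := by
      rcases mul_eq_zero.1 this.symm with h1 | h1
      · exact absurd h1 hc.ne'
      · exact h1
    exact norm_eq_zero.1 h0
  let e := LinearEquiv.ofInjectiveEndo D hinj
  have he : ∀ v, D (e.symm v) = v := fun v => by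
    have := e.apply_symm_apply v
    rwa [LinearEquiv.coe_ofInjectiveEndo] at this
  have hn : ∀ v, ‖e.symm v‖ = c⁻¹ * ‖v‖ := by
    intro v
    have := h.2.1 (e.symm v)
    rw [he] at this
    rw [this]
    field_simp
  refine ⟨e.symm.toLinearMap, inv_pos.2 hc, hn, ?_⟩
  rintro _ ⟨y, hy, rfl⟩ _ ⟨z, hz, rfl⟩
  have h1 := h.2.2 y hy z hz
  have h2 := h.norm hy hz
  simp only [Equiv.Perm.coe_inv, Equiv.symm_apply_apply, LinearEquiv.coe_coe]
  have h3 : ((y : V) - z) - e.symm ((g y : V) - g z) =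
      -(e.symm (((g y : V) - g z) - D ((y : V) - z))) := by
    have h4 : e.symm (D ((y : V) - z)) = (y : V) - z := by
      apply hinj
      rw [he]
    rw [map_sub e.symm ((g y : V) - g z), h4]
    abel
  rw [h3, norm_neg, hn, h2]
  calc c⁻¹ * ‖((g y : V) - g z) - D ((y : V) - z)‖ ≤
      c⁻¹ * (η * (c * ‖(y : V) - z‖)) :=
        mul_le_mul_of_nonneg_left h1 (inv_pos.2 hc).le
    _ = _ := by ring

omit [IsUltrametricDist V] hη in
theorem NS.mono {g : Equiv.Perm U} {D : V →ₗ[K] V} {c : ℝ} {s t : Set U} (h : NS η g D c s)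
    (hts : t ⊆ s) : NS η g D c t :=
  ⟨h.1, h.2.1, fun y hy z hz => h.2.2 y (hts hy) z (hts hz)⟩

/-- the balls of `U` -/
def cballs (U : Set V) : Set (Set U) := {s | ∃ (x : U) (r : ℝ), 0 < r ∧ s = Metric.closedBall x r}

omit [NormedSpace K V] in
theorem cballs_center {s : Set U} (hs : s ∈ cballs U) {x : U} (hx : x ∈ s) :
    ∃ r : ℝ, 0 < r ∧ s = Metric.closedBall x r := by
  obtain ⟨y, r, hr, rfl⟩ := hs
  exact ⟨r, hr, IsUltrametricDist.closedBall_eq_of_mem hx⟩

omit [NormedSpace K V] in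
theorem cballs_fin [CompactSpace U] {s : Set U} (hs : s ∈ cballs U) :
    {t | t ∈ cballs U ∧ s ⊆ t}.Finite := by
  obtain ⟨x, r, hr, rfl⟩ := hs
  obtain ⟨T, -, hT, hcov⟩ := finite_cover_balls_of_compact (isCompact_univ (X := U)) hr
  refine ((hT.finite_subsets).image (fun A : Set U => ⋃ a ∈ A, Metric.ball a r)).subset ?_
  rintro t ⟨ht, hst⟩
  have hxt : x ∈ t := hst (Metric.mem_closedBall_self hr.le)
  obtain ⟨r', hr', rfl⟩ := cballs_center ht hxt
  refine ⟨{a | a ∈ T ∧ a ∈ Metric.closedBall x r'}, fun a ha => ha.1, ?_⟩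
  have key : ∀ y a : U, dist y a < r → (y ∈ Metric.closedBall x r' ↔
      a ∈ Metric.closedBall x r') := by
    have h1 : ∀ y a : U, dist y a < r → a ∈ Metric.closedBall x r' →
        y ∈ Metric.closedBall x r' := by
      intro y a hya ha
      rcases le_total r r' with hrr | hrr
      · rw [Metric.mem_closedBall] at ha ⊢
        exact (dist_triangle_max y a x).trans (max_le (hya.le.trans hrr) ha)
      · apply hst
        rw [Metric.mem_closedBall] at ha ⊢
        exact (dist_triangle_max y a x).trans (max_le hya.le (ha.trans hrr))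
    intro y a hya
    exact ⟨h1 a y (by rwa [dist_comm]), h1 y a hya⟩
  ext y
  simp only [mem_iUnion, mem_ofPred_eq, exists_prop]
  constructor
  · rintro ⟨a, ⟨-, ha⟩, hy⟩
    exact (key y a hy).2 ha
  · intro hy
    have h2 := hcov (mem_univ y)
    rw [mem_iUnion₂] at h2
    obtain ⟨a, ha, hya⟩ := h2
    exact ⟨a, ⟨ha, (key y a hya).1 hy⟩, hya⟩

/-- the image of a ball inside -/
theorem cballs_image {g : Equiv.Perm U} {D : V →ₗ[K] V} {c : ℝ} {s t : Set U}
    (h : NS η g D c s) (hgs : g '' s ∈ cballs U) (ht : t ∈ cballs U) (hts : t ⊆ s) :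
    g '' t ∈ cballs U := by
  obtain ⟨x, r, hr, rfl⟩ := ht
  have hxs : x ∈ s := hts (Metric.mem_closedBall_self hr.le)
  obtain ⟨R, hR, hgR⟩ := cballs_center hgs (mem_image_of_mem g hxs)
  refine ⟨g x, min R (c * r), lt_min hR (mul_pos h.1 hr), ?_⟩
  ext w
  constructor
  · rintro ⟨y, hy, rfl⟩
    have hys := hts hy
    rw [Metric.mem_closedBall, le_min_iff]
    refine ⟨?_, ?_⟩
    · have : g y ∈ Metric.closedBall (g x) R := by
        rw [← hgR]
        exact mem_image_of_mem g hys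
      exact this
    · rw [Subtype.dist_eq, dist_eq_norm, h.norm hys hxs]
      refine mul_le_mul_of_nonneg_left ?_ h.1.le
      rw [Metric.mem_closedBall, Subtype.dist_eq, dist_eq_norm] at hy
      exact hy
  · intro hw
    rw [Metric.mem_closedBall, le_min_iff] at hw
    have h1 : w ∈ g '' s := by
      rw [hgR]
      exact hw.1
    obtain ⟨y, hys, rfl⟩ := h1
    refine ⟨y, ?_, rfl⟩
    have h2 := hw.2
    rw [Subtype.dist_eq, dist_eq_norm, h.norm hys hxs] at h2
    rw [Metric.mem_closedBall, Subtype.dist_eq, dist_eq_norm]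
    exact le_of_mul_le_mul_left h2 h.1

/-- the system of balls of `U` -/
def confSys (K : Type*) [NontriviallyNormedField K] (η : ℝ) [Fact (0 < η ∧ η < 1)] (V : Type*)
    [NormedAddCommGroup V] [NormedSpace K V] [IsUltrametricDist V] [FiniteDimensional K V]
    (U : Set V) [CompactSpace U] : Sim U where
  B := cballs U
  good := fun g s => g '' s ∈ cballs U ∧ ∃ (D : V →ₗ[K] V) (c : ℝ), NS η g D c s
  ne := by
    rintro _ ⟨x, r, hr, rfl⟩
    exact ⟨x, Metric.mem_closedBall_self hr.le⟩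
  nest := by
    rintro _ ⟨x, r, hr, rfl⟩ _ ⟨y, t, ht, rfl⟩
    exact IsUltrametricDist.closedBall_subset_trichotomy _ _ _ _
  fin := fun s hs => cballs_fin hs
  one := fun s hs => ⟨by rwa [image_one'], LinearMap.id, 1, NS.one s⟩
  img := fun g s _ h => h.1
  inv := by
    rintro g s hs ⟨h1, D, c, h2⟩
    obtain ⟨E, hE⟩ := h2.inv
    exact ⟨by rwa [image_inv_image], E, c⁻¹, hE⟩
  mul := by
    rintro g h s hs ⟨h1, D, c, h2⟩ ⟨h3, E, d, h4⟩
    exact ⟨by rwa [image_mul'], _, _, h2.mul h4⟩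
  res := by
    rintro g s hs t ht hts ⟨h1, D, c, h2⟩
    exact ⟨cballs_image h2 h1 ht hts, D, c, h2.mono hts⟩

end conf

end Vale.Agent.P192.H503.LF
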