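import Vale.Agent.P192.R2.H51L.Fpb
import Vale.Agent.P192.R2.H503.LF.Conf

/-!
# P192: conformal C1 bijections over local fields
-/

namespace Vale.Agent.P192.H503.LF

open Set Vale.Agent.P192.R2.H51L Topology

section conf

variable {K : Type*} [NontriviallyNormedField K] {V : Type*} [NormedAddCommGroup V]
  [NormedSpace K V] [IsUltrametricDist V] {U : Set V} {η : ℝ} [hη : Fact (0 < η ∧ η < 1)]

/-- strictly differentiable everywhere, the derivatives being similarities -/
def IsConf (K : Type*) [NontriviallyNormedField K] {V : Type*} [NormedAddCommGroup V]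
    [NormedSpace K V] {U : Set V} (g : Equiv.Perm U) : Prop :=
  ∀ x : U, ∃ (D : V →ₗ[K] V) (c : ℝ), 0 < c ∧ (∀ v, ‖D v‖ = c * ‖v‖) ∧
    ∀ ε : ℝ, 0 < ε → ∃ δ : ℝ, 0 < δ ∧ ∀ y z : U, ‖(y : V) - x‖ < δ → ‖(z : V) - x‖ < δ →
      ‖((g y : V) - g z) - D ((y : V) - z)‖ ≤ ε * ‖(y : V) - z‖

theorem conf_good [Nontrivial V] [FiniteDimensional K V] [CompactSpace U] (hU : IsOpen U)
    {g : Equiv.Perm U} (hg : IsConf K g) (hg' : IsConf K g⁻¹) (x : U) :
    ∃ s ∈ cballs U, s ∈ 𝓝 x ∧ (confSys K η V U).good g s := by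
  obtain ⟨D, c, hc, hD, hε⟩ := hg x
  obtain ⟨D', c', hc', hD', hε'⟩ := hg' (g x)
  have hpp := hη.out.1
  obtain ⟨δ, hδ, hA⟩ := hε (η * c) (mul_pos hpp hc)
  obtain ⟨δ', hδ', hA'⟩ := hε' (η * c') (mul_pos hpp hc')
  have n1 : NS η g D c (Metric.ball x δ) := by
    refine ⟨hc, hD, fun y hy z hz => ?_⟩
    rw [Metric.mem_ball, Subtype.dist_eq, dist_eq_norm] at hy hz
    have := hA y z hy hz
    rwa [mul_assoc] at this
  have n2 : NS η g⁻¹ D' c' (Metric.ball (g x) δ') := by
    refine ⟨hc', hD', fun y hy z hz => ?_⟩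
    rw [Metric.mem_ball, Subtype.dist_eq, dist_eq_norm] at hy hz
    have := hA' y z hy hz
    rwa [mul_assoc] at this
  have hx1 : x ∈ Metric.ball x δ := Metric.mem_ball_self hδ
  have hx2 : g x ∈ Metric.ball (g x) δ' := Metric.mem_ball_self hδ'
  -- the ratios are inverse to each other
  have hcc : c' * c = 1 := by
    have hne : (𝓝[≠] (x : V)).NeBot := Module.punctured_nhds_neBot K V (x : V)
    have h1 : ∀ᶠ y in 𝓝[≠] (x : V), y ∈ U := mem_nhdsWithin_of_mem_nhds (hU.mem_nhds x.2)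
    have h2 : ∀ᶠ y in 𝓝[≠] (x : V), y ∈ Metric.ball (x : V) (min δ (δ' / c)) :=
      mem_nhdsWithin_of_mem_nhds (Metric.ball_mem_nhds _ (lt_min hδ (div_pos hδ' hc)))
    have h3 : ∀ᶠ y in 𝓝[≠] (x : V), y ≠ (x : V) := self_mem_nhdsWithin
    obtain ⟨y, hyU, hyb, hyx⟩ := (h1.and (h2.and h3)).exists
    rw [Metric.mem_ball, dist_eq_norm, lt_min_iff] at hyb
    have hy1 : (⟨y, hyU⟩ : U) ∈ Metric.ball x δ := by
      rw [Metric.mem_ball, Subtype.dist_eq, dist_eq_norm]
      exact hyb.1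
    have e1 := n1.norm hy1 hx1
    have hy2 : g ⟨y, hyU⟩ ∈ Metric.ball (g x) δ' := by
      rw [Metric.mem_ball, Subtype.dist_eq, dist_eq_norm, e1]
      have := (lt_div_iff₀ hc).1 hyb.2
      linarith
    have e2 := n2.norm hy2 hx2
    rw [e1] at e2
    simp only [Equiv.Perm.coe_inv, Equiv.symm_apply_apply] at e2
    have h4 : 0 < ‖y - (x : V)‖ := norm_pos_iff.2 (sub_ne_zero.2 hyx)
    have h5 : (c' * c) * ‖y - (x : V)‖ = 1 * ‖y - (x : V)‖ := by linarith
    exact mul_right_cancel₀ h4.ne' h5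
  -- the radius
  obtain ⟨r, hr, hrδ, hrδ'⟩ : ∃ r : ℝ, 0 < r ∧ r < δ ∧ c * r < δ' := by
    refine ⟨min (δ / 2) (δ' / (2 * c)), lt_min (by positivity) (by positivity), ?_, ?_⟩
    · exact (min_le_left _ _).trans_lt (by linarith)
    · have : c * min (δ / 2) (δ' / (2 * c)) ≤ c * (δ' / (2 * c)) :=
        mul_le_mul_of_nonneg_left (min_le_right _ _) hc.le
      have h2 : c * (δ' / (2 * c)) = δ' / 2 := by field_simp
      linarith
  have hsub : Metric.closedBall x r ⊆ Metric.ball x δ := Metric.closedBall_subset_ball hrδ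
  have hsub' : Metric.closedBall (g x) (c * r) ⊆ Metric.ball (g x) δ' :=
    Metric.closedBall_subset_ball hrδ'
  refine ⟨Metric.closedBall x r, ⟨x, r, hr, rfl⟩, Metric.closedBall_mem_nhds x hr, ?_, D, c,
    n1.mono hsub⟩
  refine ⟨g x, c * r, mul_pos hc hr, ?_⟩
  ext w
  constructor
  · rintro ⟨y, hy, rfl⟩
    have e1 := n1.norm (hsub hy) hx1
    rw [Metric.mem_closedBall, Subtype.dist_eq, dist_eq_norm] at hy ⊢
    rw [e1]
    exact mul_le_mul_of_nonneg_left hy hc.le
  · intro hw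
    have e2 := n2.norm (hsub' hw) hx2
    refine ⟨g⁻¹ w, ?_, by simp⟩
    rw [Metric.mem_closedBall, Subtype.dist_eq, dist_eq_norm] at hw ⊢
    simp only [Equiv.Perm.coe_inv, Equiv.symm_apply_apply] at e2 ⊢
    rw [e2]
    calc c' * ‖(w : V) - g x‖ ≤ c' * (c * r) := mul_le_mul_of_nonneg_left hw hc'.le
      _ = (c' * c) * r := by ring
      _ = r := by rw [hcc, one_mul]

theorem conf_cov [Nontrivial V] [FiniteDimensional K V] [CompactSpace U] (hU : IsOpen U)
    {g : Equiv.Perm U} (hg : IsConf K g) (hg' : IsConf K g⁻¹) : Cov (confSys K η V U) g := by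
  choose s hs hsx hsg using conf_good (η := η) hU hg hg'
  obtain ⟨t, ht⟩ := CompactSpace.elim_nhds_subcover s hsx
  refine ⟨s '' t, t.finite_toSet.image s, ?_, ?_, ?_⟩
  · rintro _ ⟨x, -, rfl⟩
    exact hs x
  · rw [sUnion_image]
    simpa using ht
  · rintro _ ⟨x, -, rfl⟩
    exact hsg x

/-- inverses of near identities -/
theorem NS.inv_id {g : Equiv.Perm U} {s : Set U}
    (h : NS (K := K) η g LinearMap.id 1 s) : NS (K := K) η g⁻¹ LinearMap.id 1 (g '' s) := by
  refine ⟨one_pos, fun v => by simp, ?_⟩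
  rintro _ ⟨y, hy, rfl⟩ _ ⟨z, hz, rfl⟩
  have h1 := h.2.2 y hy z hz
  have h2 := h.norm hy hz
  simp only [Equiv.Perm.coe_inv, Equiv.symm_apply_apply, LinearMap.id_coe, id] at h1 ⊢
  rw [h2, norm_sub_rev, one_mul]
  exact h1

omit hη in
theorem natCast_smul_le (a : V) (i : ℕ) : ‖(i : K) • a‖ ≤ ‖a‖ := by
  induction i with
  | zero => simp
  | succ i ih =>
    rw [Nat.cast_add, Nat.cast_one, add_smul, one_smul]
    exact (umax _ _).trans (max_le ih le_rfl)

/-- near identities have no points of prime order -/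
theorem no_prime' {f : Equiv.Perm U} {s : Set U} (h : NS (K := K) η f LinearMap.id 1 s)
    (hs : f '' s = s) (q : ℕ) (hq : η < ‖(q : K)‖) (x : U) (hx : x ∈ s) (hf : (f ^ q) x = x) :
    f x = x := by
  by_contra hne
  set a : V := (f x : V) - x with ha
  have ha0 : a ≠ 0 := sub_ne_zero.2 (fun h => hne (Subtype.ext h))
  have hiter : ∀ i : ℕ, (f ^ i) x ∈ s := by
    intro i
    induction i with
    | zero => simpa using hx
    | succ i ih =>
      rw [pow_succ', Equiv.Perm.mul_apply, ← hs]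
      exact mem_image_of_mem f ih
  have key : ∀ i : ℕ, ‖(((f ^ i) x : U) : V) - x - (i : K) • a‖ ≤ η * ‖a‖ := by
    intro i
    induction i with
    | zero =>
      have := hη.out.1
      simp only [pow_zero, Equiv.Perm.coe_one, id, sub_self, Nat.cast_zero, zero_smul, norm_zero]
      positivity
    | succ i ih =>
      rw [pow_succ', Equiv.Perm.mul_apply]
      set y := (f ^ i) x with hy
      have hys : y ∈ s := hiter i
      have e1 : (f y : V) - x - ((i + 1 : ℕ) : K) • a =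
          ((y : V) - x - (i : K) • a) + (((f y : V) - f x) - ((y : V) - x)) := by
        rw [Nat.cast_add, Nat.cast_one, add_smul, one_smul]
        nth_rewrite 2 [ha]
        abel
      rw [e1]
      refine (umax _ _).trans (max_le ih ?_)
      have h1 := h.2.2 y hys x hx
      rw [one_mul, LinearMap.id_coe, id] at h1
      refine h1.trans (mul_le_mul_of_nonneg_left ?_ hη.out.1.le)
      have e2 : (y : V) - x = ((y : V) - x - (i : K) • a) + (i : K) • a := by abel
      rw [e2]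
      refine (umax _ _).trans (max_le (ih.trans ?_) (natCast_smul_le a i))
      have := hη.out.2
      nlinarith [norm_nonneg a]
  have h3 := key q
  rw [hf, sub_self, zero_sub, norm_neg, norm_smul] at h3
  exact absurd (le_of_mul_le_mul_right h3 (norm_pos_iff.2 ha0)) (not_le.2 hq)

end conf

/-- a bound for the primes -/
theorem exists_eta (K : Type*) [NontriviallyNormedField K] [IsUltrametricDist K] :
    ∃ η : ℝ, (0 < η ∧ η < 1) ∧ ∀ q : ℕ, q.Prime → (q : K) ≠ 0 → η < ‖(q : K)‖ := by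
  by_cases h : ∃ p : ℕ, p.Prime ∧ (p : K) ≠ 0 ∧ ‖(p : K)‖ < 1
  · obtain ⟨p, hp, hp0, hp1⟩ := h
    have hpos : 0 < ‖(p : K)‖ := norm_pos_iff.2 hp0
    refine ⟨‖(p : K)‖ / 2, ⟨by linarith, by linarith⟩, fun q hq hq0 => ?_⟩
    rcases eq_or_ne q p with rfl | hne
    · linarith
    · have hco : Nat.Coprime p q := (Nat.coprime_primes hp hq).2 hne.symm
      have hb : ((p : ℤ) * Nat.gcdA p q + (q : ℤ) * Nat.gcdB p q) = 1 := by
        rw [← Nat.gcd_eq_gcd_ab, hco.gcd_eq_one, Nat.cast_one]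
      have hb' : (p : K) * (Nat.gcdA p q : ℤ) + (q : K) * (Nat.gcdB p q : ℤ) = 1 := by
        exact_mod_cast congrArg (Int.cast : ℤ → K) hb
      have h1 : ‖(1 : K)‖ ≤ max ‖(p : K)‖ ‖(q : K)‖ := by
        rw [← hb']
        refine (IsUltrametricDist.norm_add_le_max _ _).trans (max_le_max ?_ ?_)
        · rw [norm_mul]
          have := IsUltrametricDist.norm_intCast_le_one K (Nat.gcdA p q)
          nlinarith [norm_nonneg (p : K)]
        · rw [norm_mul]
          have := IsUltrametricDist.norm_intCast_le_one K (Nat.gcdB p q)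
          nlinarith [norm_nonneg (q : K)]
      rw [norm_one] at h1
      rcases le_max_iff.1 h1 with h2 | h2
      · linarith
      · linarith
  · push Not at h
    exact ⟨1 / 2, ⟨by norm_num, by norm_num⟩, fun q hq hq0 => lt_of_lt_of_le (by norm_num)
      (h q hq hq0)⟩

end Vale.Agent.P192.H503.LF
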