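import Vale.Agent.P192.R2.H503.LF.ConfThm

/-!
# P192: finitely generated periodic groups of conformal C1 bijections are residually finite
-/

namespace Vale.Agent.P192.H503.LF

open Set Vale.Agent.P192.R2.H51L Topology

section conf

variable {K : Type*} [NontriviallyNormedField K] {V : Type*} [NormedAddCommGroup V]
  [NormedSpace K V] [IsUltrametricDist V] {U : Set V} {η : ℝ} [hη : Fact (0 < η ∧ η < 1)]

/-- an invariant finite partition into balls on which a subgroup of finite index is isometric -/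
theorem conf_parts (η : ℝ) [hη : Fact (0 < η ∧ η < 1)] [Nontrivial V] [FiniteDimensional K V]
    [CompactSpace U] (hU : IsOpen U) {Γ : Type*} [Group Γ] (hfg : Group.FG Γ)
    (hfo : ∀ x : Γ, IsOfFinOrder x) (ρ : Γ →* Equiv.Perm U) (hC : ∀ g, IsConf K (ρ g)) :
    ∃ (Q : Set (Set U)) (N : Subgroup Γ), Q.Finite ∧ Q ⊆ cballs U ∧ ⋃₀ Q = univ ∧
      N.FiniteIndex ∧ ∀ g ∈ N, ∀ P ∈ Q, (ρ g) '' P = P ∧
        ∀ x ∈ P, ∀ y ∈ P, dist (ρ g x) (ρ g y) = dist x y := by
  set S := confSys K η V U with hS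
  have hK : ρ.range.FG := (Group.fg_iff_subgroup_fg _).1 (Group.fg_range ρ)
  have hKt : ∀ k ∈ ρ.range, IsOfFinOrder k := by
    rintro _ ⟨x, rfl⟩
    exact MonoidHom.isOfFinOrder ρ (hfo x)
  have hKc : ∀ k ∈ ρ.range, Cov S k := by
    rintro _ ⟨x, rfl⟩
    exact conf_cov hU (hC x) (by rw [← map_inv]; exact hC x⁻¹)
  obtain ⟨hPf, hPu⟩ := parts_finite_cover S ρ.range hK hKt hKc
  have hfin : Finite (Parts S ρ.range) := hPf
  let α : Γ →* Equiv.Perm (Parts S ρ.range) := (actParts S ρ.range).comp ρ.rangeRestrict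
  refine ⟨Parts S ρ.range, α.ker, hPf, fun P hP => hP.1.1, hPu, Subgroup.finiteIndex_ker α, ?_⟩
  intro g hg P hP
  have hgP : (ρ g) '' P = P := ker_image S ρ.range (ρ.rangeRestrict g) hg ⟨P, hP⟩
  obtain ⟨-, D, c, h2⟩ := hP.1.2 (ρ g) ⟨g, rfl⟩
  obtain ⟨x, hx, y, hy, hxy⟩ := cballs_two K hU hP.1.1
  have h3 := h2.one_of_periodic hgP (MonoidHom.isOfFinOrder ρ (hfo g)) hx hy hxy
  refine ⟨hgP, fun x hx y hy => ?_⟩
  rw [Subtype.dist_eq, Subtype.dist_eq, dist_eq_norm, dist_eq_norm, h2.norm hx hy, h3, one_mul]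

omit hη in
theorem conf_resid' [Nontrivial V] [FiniteDimensional K V]
    [CompactSpace U] (hU : IsOpen U) {Γ : Type*} [Group Γ] (hfg : Group.FG Γ)
    (hfo : ∀ x : Γ, IsOfFinOrder x) (ρ : Γ →* Equiv.Perm U) (hC : ∀ g, IsConf K (ρ g)) (g : Γ)
    (hg : ρ g ≠ 1) : ∃ L : Subgroup Γ, L.Normal ∧ L.FiniteIndex ∧ g ∉ L := by
  have hη : Fact ((0 : ℝ) < 1 / 2 ∧ (1 / 2 : ℝ) < 1) := ⟨by norm_num, by norm_num⟩
  obtain ⟨Q, N, hQ, hQb, hQu, hN, h⟩ := conf_parts (1 / 2) hU hfg hfo ρ hC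
  obtain ⟨x, hx⟩ : ∃ x, ρ g x ≠ x := by
    by_contra hc
    push Not at hc
    exact hg (Equiv.ext hc)
  set r := dist (ρ g x) x / 2 with hr
  have hd : 0 < dist (ρ g x) x := dist_pos.2 hx
  have hr0 : 0 < r := by positivity
  let M : Subgroup Γ :=
    { carrier := {g | g ∈ N ∧ ∀ z, dist (ρ g z) z ≤ r}
      one_mem' := ⟨one_mem _, fun z => by simpa using hr0.le⟩
      mul_mem' := by
        rintro a b ⟨ha, ha'⟩ ⟨hb, hb'⟩
        refine ⟨mul_mem ha hb, fun z => ?_⟩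
        rw [map_mul, Equiv.Perm.mul_apply]
        exact (dist_triangle_max _ (ρ b z) _).trans (max_le (ha' _) (hb' z))
      inv_mem' := by
        rintro a ⟨ha, ha'⟩
        refine ⟨inv_mem ha, fun z => ?_⟩
        have := ha' (ρ a⁻¹ z)
        rw [← Equiv.Perm.mul_apply, ← map_mul, mul_inv_cancel, map_one, Equiv.Perm.one_apply,
          dist_comm] at this
        exact this }
  -- a net adapted to the parts
  have hnet : ∀ P : Q, ∃ t ⊆ P.1, t.Finite ∧ P.1 ⊆ ⋃ x ∈ t, Metric.ball x r := by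
    intro P
    obtain ⟨y, s, hs, hP⟩ := hQb P.2
    have hc : IsCompact P.1 := by
      rw [hP]
      exact Metric.isClosed_closedBall.isCompact
    exact finite_cover_balls_of_compact hc hr0
  choose t htP htf htc using hnet
  have : Finite Q := hQ
  set T : Set U := ⋃ P : Q, t P with hT
  have hTf : T.Finite := Set.finite_iUnion htf
  have : Finite T := hTf
  have hcov : ∀ z : U, ∃ P : Q, ∃ a ∈ t P, z ∈ P.1 ∧ dist z a < r := by
    intro z
    have hz : z ∈ ⋃₀ Q := by rw [hQu]; exact mem_univ _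
    obtain ⟨P, hP, hzP⟩ := hz
    have h1 := htc ⟨P, hP⟩ hzP
    rw [mem_iUnion₂] at h1
    obtain ⟨a, ha, h2⟩ := h1
    exact ⟨⟨P, hP⟩, a, ha, hzP, h2⟩
  have hcov' : ∀ (g : N) (s : T), ∃ a : T, dist (ρ g s) (a : U) < r := by
    intro g s
    obtain ⟨P, a, ha, -, h2⟩ := hcov (ρ g s)
    exact ⟨⟨a, mem_iUnion.2 ⟨P, ha⟩⟩, h2⟩
  choose F hF using hcov'
  have hM : M.FiniteIndex := by
    refine finiteIndex_of_map (κ := T → T) hN (fun g hg => hg.1) F ?_
    intro a b hab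
    refine ⟨mul_mem (inv_mem a.2) b.2, fun z => ?_⟩
    obtain ⟨P, s, hs, hzP, hzs⟩ := hcov z
    have hsP := htP P hs
    have h1 := hF a ⟨s, mem_iUnion.2 ⟨P, hs⟩⟩
    have h2 := hF b ⟨s, mem_iUnion.2 ⟨P, hs⟩⟩
    rw [← congrFun hab] at h2
    have h3 : dist (ρ b s) (ρ a s) ≤ r := by
      refine (dist_triangle_max _ ((F a ⟨s, mem_iUnion.2 ⟨P, hs⟩⟩ : T) : U) _).trans
        (max_le h2.le ?_)
      rw [dist_comm]
      exact h1.le
    have h4 : dist (ρ b z) (ρ a z) ≤ r := by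
      refine (dist_triangle_max _ (ρ b s) _).trans (max_le ?_ ?_)
      · rw [(h b b.2 P.1 P.2).2 z hzP s hsP]
        exact hzs.le
      · refine (dist_triangle_max _ (ρ a s) _).trans (max_le h3 ?_)
        rw [(h a a.2 P.1 P.2).2 s hsP z hzP, dist_comm]
        exact hzs.le
    -- apply the inverse of `a`
    have hai := (h (a : Γ)⁻¹ (inv_mem a.2) P.1 P.2)
    have m1 : ρ b z ∈ P.1 := by
      have := mem_image_of_mem (ρ b) hzP
      rwa [(h b b.2 P.1 P.2).1] at this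
    have m2 : ρ a z ∈ P.1 := by
      have := mem_image_of_mem (ρ a) hzP
      rwa [(h a a.2 P.1 P.2).1] at this
    have h5 := hai.2 _ m1 _ m2
    rw [← Equiv.Perm.mul_apply, ← map_mul, ← Equiv.Perm.mul_apply, ← map_mul, inv_mul_cancel,
      map_one, Equiv.Perm.one_apply] at h5
    rw [h5]
    exact h4
  refine ⟨M.normalCore, inferInstance, inferInstance, fun hgM => ?_⟩
  have h1 := (M.normalCore_le hgM).2 x
  rw [hr] at h1
  linarith

omit hη in
theorem conf_resid [FiniteDimensional K V] (hU : IsOpen U) (hc : IsCompact U) {Γ : Type*}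
    [Group Γ] (hfg : Group.FG Γ) (hfo : ∀ x : Γ, IsOfFinOrder x) (ρ : Γ →* Equiv.Perm U)
    (hC : ∀ g, IsConf K (ρ g)) (g : Γ) (hg : ρ g ≠ 1) :
    ∃ L : Subgroup Γ, L.Normal ∧ L.FiniteIndex ∧ g ∉ L := by
  rcases subsingleton_or_nontrivial V with hV | hV
  · exact absurd (Subsingleton.elim (ρ g) 1) hg
  · have : CompactSpace U := isCompact_iff_compactSpace.1 hc
    exact conf_resid' hU hfg hfo ρ hC g hg

end conf

end Vale.Agent.P192.H503.LF
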